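import Vale.Agent.P195.Findim

/-! A finite dimensional algebra with infinite little finitistic dimension. -/

namespace Vale.Agent.Results.P176.InfiniteFindim

theorem result : ∃ (k : Type) (_ : Field k) (A : Type) (_ : Ring A) (_ : Algebra k A)
    (_ : FiniteDimensional k A), ∀ n : ℕ,
      ∃ (N : Type) (_ : AddCommGroup N) (_ : Module A N) (_ : Module.Finite A N),
        CategoryTheory.projectiveDimension (ModuleCat.of A N) = (n : WithBot ℕ∞) :=
  ⟨RatFunc (ZMod 2), inferInstance, Vale.Agent.P195.findim_of_counter Vale.Agent.P195.arCounter⟩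

end Vale.Agent.Results.P176.InfiniteFindim
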